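import Crest.Agent.R320.Z440.GU_440
import Crest.Agent.R320.Z440.Fin_869

/-!
# Row 320: the values of every finite monoid have height 3 (helper440)
-/

set_option autoImplicit false

namespace Crest.Agent.R320.FinAll_440

open Crest.RegLang Crest.Agent.R320.Hk_851

theorem fin (n : ℕ) (S : Type) [Monoid S] [Finite S] (f : Fin n → S) (s : S) :
    HL 3 ({w | (w.map f).prod = s} : Language (Fin n)) :=
  Crest.Agent.R320.Fin_440.fin_of
    (fun S V _ _ _ _ act => Crest.Agent.R320.GU_440.gu S V act) n S f s

theorem main (α : Type*) [Finite α] (L : Language α) (hL : L.IsRegular) :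
    ∃ e : Crest.RegLang.GRegExp α, e.height ≤ 3 ∧ e.lang = L :=
  Crest.Agent.R320.Fin_869.template (fun n S _ _ f s => fin n S f s) α L hL

end Crest.Agent.R320.FinAll_440
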