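import Mathlib
import Crest.Agent.R320.Z440.RandF_808
import Crest.Agent.R320.Z440.Exact_808

/-!
Row 320: the gadget of scheme 1 with unknown zone length (132 #12664, 811 #12631, 755 #12640):
names given by clock residues, colours, half sets, random noise.
-/

set_option autoImplicit false

namespace Crest.Agent.R320.NameGad808

open Finset Crest.Agent.R320.RandF808 Crest.Agent.R320.Exact808

section Half

/-- half sets of `ZMod q`. -/
def Half (q : ℕ) (b : Bool) (x : ZMod q) : Prop :=
  x ≠ 0 ∧ (b = true → q < 2 * x.val) ∧ (b = false → 2 * x.val < q)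

theorem Half.add_ne {q : ℕ} [NeZero q] {b : Bool} {x y : ZMod q} (hx : Half q b x)
    (hy : Half q b y) : x + y ≠ 0 := by
  intro h
  have hy' : y = -x := by
    rw [eq_neg_iff_add_eq_zero, add_comm]
    exact h
  have hv : y.val = q - x.val := by
    rw [hy', ZMod.neg_val, if_neg hx.1]
  have hlt : x.val < q := ZMod.val_lt x
  cases b with
  | true =>
    have h1 := hx.2.1 rfl
    have h2 := hy.2.1 rfl
    omega
  | false =>
    have h1 := hx.2.2 rfl
    have h2 := hy.2.2 rfl
    omega

theorem Half.unique {q : ℕ} {b c : Bool} {x : ZMod q} (hx : Half q b x) (hy : Half q c x) :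
    b = c := by
  cases b <;> cases c <;> simp
  · have h1 := hx.2.2 rfl
    have h2 := hy.2.1 rfl
    omega
  · have h1 := hx.2.1 rfl
    have h2 := hy.2.2 rfl
    omega

theorem Half.exists {q : ℕ} (hq : Odd q) {x : ZMod q} (hx : x ≠ 0) : ∃ b, Half q b x := by
  obtain ⟨r, hr⟩ := hq
  rcases lt_trichotomy (2 * x.val) q with h | h | h
  · exact ⟨false, hx, by simp, fun _ => h⟩
  · omega
  · exact ⟨true, hx, fun _ => h, by simp⟩

end Half

section Names

/-- names: a context together with a family (sign vector over the colours). -/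
abbrev Nm (X Y : Type*) := X × (Y → Bool)

/-- index set of the moduli. -/
abbrev Idx (X Y : Type*) := (Nm X Y × Bool) ⊕ Y

variable {X Y : Type*} [DecidableEq X] [DecidableEq Y] (col : X → Y)
  (q : Idx X Y → ℕ)

/-- type of a name at a colour coordinate. -/
def typ (c : Nm X Y) (j : Y) : Bool := xor (decide (col c.1 = j)) (c.2 j)

/-- the left clock shows the name `c`. -/
def LegL (t : ∀ j, ZMod (q j)) (c : Nm X Y) : Prop :=
  (t (Sum.inl (c, false)) = 0 ∧ t (Sum.inl (c, true)) ≠ 0) ∧
  (∀ l, l ≠ c → t (Sum.inl (l, false)) ≠ 0 ∧ t (Sum.inl (l, true)) = 0) ∧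
  ∀ j : Y, (typ col c j = false → t (Sum.inr j) = 0) ∧
    (typ col c j = true → Half (q (Sum.inr j)) (c.2 j) (t (Sum.inr j)))

/-- the right clock shows the name `c`. -/
def LegR (t : ∀ j, ZMod (q j)) (c : Nm X Y) : Prop :=
  (t (Sum.inl (c, false)) ≠ 0 ∧ t (Sum.inl (c, true)) = 0) ∧
  (∀ l, l ≠ c → t (Sum.inl (l, false)) = 0 ∧ t (Sum.inl (l, true)) ≠ 0) ∧
  ∀ j : Y, (typ col c j = true → t (Sum.inr j) = 0) ∧
    (typ col c j = false → Half (q (Sum.inr j)) (c.2 j) (t (Sum.inr j)))

variable {col q}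

theorem LegL.unique {t : ∀ j, ZMod (q j)} {c d : Nm X Y} (h1 : LegL col q t c)
    (h2 : LegL col q t d) : c = d := by
  by_contra hne
  exact (h2.2.1 c hne).1 h1.1.1

theorem LegR.unique {t : ∀ j, ZMod (q j)} {c d : Nm X Y} (h1 : LegR col q t c)
    (h2 : LegR col q t d) : c = d := by
  by_contra hne
  exact h1.1.1 (h2.2.1 c hne).1

theorem same_name {t t' : ∀ j, ZMod (q j)} {c : Nm X Y} (h1 : LegL col q t c)
    (h2 : LegR col q t' c) (l : Nm X Y) (b : Bool) : (t + t') (Sum.inl (l, b)) ≠ 0 := by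
  rw [Pi.add_apply]
  by_cases hl : l = c
  · subst hl
    cases b with
    | false => rw [h1.1.1, zero_add]; exact h2.1.1
    | true => rw [h2.1.2, add_zero]; exact h1.1.2
  · cases b with
    | false => rw [(h2.2.1 l hl).1, add_zero]; exact (h1.2.1 l hl).1
    | true => rw [(h1.2.1 l hl).2, zero_add]; exact (h2.2.1 l hl).2

theorem diff_name {t t' : ∀ j, ZMod (q j)} {c d : Nm X Y} (h1 : LegL col q t c)
    (h2 : LegR col q t' d) (hcd : c ≠ d) :
    (t + t') (Sum.inl (c, false)) = 0 ∧ (t + t') (Sum.inl (d, true)) = 0 ∧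
      ∀ l b, (t + t') (Sum.inl (l, b)) = 0 → l = c ∨ l = d := by
  refine ⟨?_, ?_, ?_⟩
  · rw [Pi.add_apply, h1.1.1, (h2.2.1 c hcd).1, add_zero]
  · rw [Pi.add_apply, h2.1.2, (h1.2.1 d (Ne.symm hcd)).2, add_zero]
  · intro l b h
    by_contra hcon
    push Not at hcon
    rw [Pi.add_apply] at h
    cases b with
    | false => rw [(h2.2.1 l hcon.2).1, add_zero] at h; exact (h1.2.1 l hcon.1).1 h
    | true => rw [(h1.2.1 l hcon.1).2, zero_add] at h; exact (h2.2.1 l hcon.2).2 h

theorem swap_name [∀ j, NeZero (q j)] {t t' u u' : ∀ j, ZMod (q j)} {c d : Nm X Y}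
    (h1 : LegL col q t c) (h2 : LegR col q t' d) (h3 : LegL col q u d) (h4 : LegR col q u' c)
    (hT : t + t' = u + u') : col c.1 = col d.1 := by
  by_contra hne
  obtain ⟨j, hj⟩ : ∃ j, j = col c.1 := ⟨_, rfl⟩
  have hT' := congrFun hT (Sum.inr j)
  rw [Pi.add_apply, Pi.add_apply] at hT'
  have a1 := h1.2.2 j
  have a2 := h2.2.2 j
  have a3 := h3.2.2 j
  have a4 := h4.2.2 j
  have hc : typ col c j = !(c.2 j) := by
    simp [typ, hj]
  have hd : typ col d j = d.2 j := by
    have : ¬ (col d.1 = j) := fun h => hne (by rw [h, hj])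
    simp [typ, this]
  rw [hc] at a1 a4
  rw [hd] at a2 a3
  cases hcj : c.2 j <;> cases hdj : d.2 j <;> rw [hcj] at a1 a4 <;> rw [hdj] at a2 a3 <;>
    simp only [Bool.not_false, Bool.not_true, reduceCtorEq, false_implies, true_implies, true_and,
      and_true, forall_const] at a1 a2 a3 a4
  · -- c false (type true), d false (type false)
    rw [a3, a4, add_zero] at hT'
    exact a1.add_ne a2 hT'
  · -- c false (type true), d true (type true)
    rw [a2, a4, add_zero, add_zero] at hT'
    rw [hT'] at a1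
    exact absurd (a1.unique a3) (by decide)
  · -- c true (type false), d false (type false)
    rw [a1, a3, zero_add, zero_add] at hT'
    rw [hT'] at a2
    exact absurd (a2.unique a4) (by decide)
  · -- c true (type false), d true (type true)
    rw [a1, a2, add_zero] at hT'
    exact a3.add_ne a4 hT'.symm

theorem exists_split (hq : ∀ j, Odd (q j)) (T : ∀ j, ZMod (q j)) (hT : ∀ j, T j ≠ 0) (c : X) :
    ∃ eps : Y → Bool, ∃ t t' : ∀ j, ZMod (q j), t + t' = T ∧ LegL col q t (c, eps) ∧
      LegR col q t' (c, eps) := by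
  classical
  choose f hf using fun j : Y => Half.exists (hq (Sum.inr j)) (hT (Sum.inr j))
  obtain ⟨n, hn⟩ : ∃ n : Nm X Y, n = (c, f) := ⟨_, rfl⟩
  have hn2 : ∀ j, n.2 j = f j := by intro j; rw [hn]
  let t : ∀ j, ZMod (q j) := fun j =>
    match j with
    | Sum.inl (l, false) => if l = n then 0 else T (Sum.inl (l, false))
    | Sum.inl (l, true) => if l = n then T (Sum.inl (l, true)) else 0
    | Sum.inr j => if typ col n j = true then T (Sum.inr j) else 0
  let t' : ∀ j, ZMod (q j) := fun j =>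
    match j with
    | Sum.inl (l, false) => if l = n then T (Sum.inl (l, false)) else 0
    | Sum.inl (l, true) => if l = n then 0 else T (Sum.inl (l, true))
    | Sum.inr j => if typ col n j = true then 0 else T (Sum.inr j)
  have ht1 : ∀ l, t (Sum.inl (l, false)) = if l = n then 0 else T (Sum.inl (l, false)) := fun _ => rfl
  have ht2 : ∀ l, t (Sum.inl (l, true)) = if l = n then T (Sum.inl (l, true)) else 0 := fun _ => rfl
  have ht3 : ∀ j, t (Sum.inr j) = if typ col n j = true then T (Sum.inr j) else 0 := fun _ => rfl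
  have ht1' : ∀ l, t' (Sum.inl (l, false)) = if l = n then T (Sum.inl (l, false)) else 0 :=
    fun _ => rfl
  have ht2' : ∀ l, t' (Sum.inl (l, true)) = if l = n then 0 else T (Sum.inl (l, true)) :=
    fun _ => rfl
  have ht3' : ∀ j, t' (Sum.inr j) = if typ col n j = true then 0 else T (Sum.inr j) := fun _ => rfl
  refine ⟨f, t, t', ?_, ?_, ?_⟩
  · funext j
    rw [Pi.add_apply]
    rcases j with ⟨l, b⟩ | j
    · cases b
      · rw [ht1, ht1']; split_ifs <;> simp
      · rw [ht2, ht2']; split_ifs <;> simp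
    · rw [ht3, ht3']; split_ifs <;> simp
  · rw [← hn]
    refine ⟨⟨?_, ?_⟩, ?_, ?_⟩
    · rw [ht1, if_pos rfl]
    · rw [ht2, if_pos rfl]; exact hT _
    · intro l hl
      rw [ht1, ht2, if_neg hl, if_neg hl]
      exact ⟨hT _, rfl⟩
    · intro j
      rw [ht3]
      refine ⟨fun h => ?_, fun h => ?_⟩
      · rw [h]; simp
      · rw [if_pos h, hn2]; exact hf j
  · rw [← hn]
    refine ⟨⟨?_, ?_⟩, ?_, ?_⟩
    · rw [ht1', if_pos rfl]; exact hT _
    · rw [ht2', if_pos rfl]
    · intro l hl
      rw [ht1', ht2', if_neg hl, if_neg hl]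
      exact ⟨rfl, hT _⟩
    · intro j
      rw [ht3']
      refine ⟨fun h => ?_, fun h => ?_⟩
      · rw [if_pos h]
      · rw [h, hn2]; simpa using hf j

end Names

section Main

/-- **Scheme 1's gadget with unknown zone length.** -/
theorem unknownT_gadget (S V : Type*) [Monoid S] [Finite S] [AddCommGroup V] [Finite V]
    (act : V → S → V) :
    ∃ (m N k : ℕ) (e : ℕ → S → ZMod N × ZMod N), 0 < N ∧
      ∀ q : Fin k → ℕ, (∀ j, Odd (q j)) →
      ∃ (L R : ℕ → (∀ j, ZMod (q j)) → S → ZMod N × ZMod N → Option V)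
        (lev : (∀ j, ZMod (q j)) → ℕ)
        (D : (∀ j, ZMod (q j)) → S → ZMod N × ZMod N → V),
        (∀ i t h wr b, R i t h wr = some b → i = lev t ∧ i < m) ∧
        (∀ (i i' : ℕ) (t t' : ∀ j, ZMod (q j)) (g h s : S) (wl wr w : ZMod N × ZMod N) (v b : V),
          (i = i' → ∃ z, g * z * h = s ∧ wl + e i z + wr = w) →
          L i t g wl = some v → R i' t' h wr = some b → b = act v s + D (t + t') s w) ∧
        (∀ T : ∀ j, ZMod (q j), (∀ j, T j ≠ 0) → ∀ (s : S) (w : ZMod N × ZMod N) (v : V),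
          ∃ i < m, ∀ (g z h : S) (wl wr : ZMod N × ZMod N), g * z * h = s →
            wl + e i z + wr = w → ∃ t t', t + t' = T ∧ L i t g wl = some v ∧
              (R i t' h wr).isSome = true) := by
  classical
  have := Fintype.ofFinite S
  have := Fintype.ofFinite V
  obtain ⟨m, N, e, hN, hF⟩ := exists_noise_unif S V
  obtain ⟨F, hF⟩ := hF act
  have : NeZero N := ⟨by omega⟩
  -- contexts: level, left data, right data, token
  let X := Fin m × (S × (ZMod N × ZMod N)) × (S × (ZMod N × ZMod N)) × V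
  let val : X → S → V := fun c z =>
    F (c.2.1.1 * z * c.2.2.1.1) (c.2.1.2 + e c.1 z + c.2.2.1.2) +
      act c.2.2.2 (c.2.1.1 * z * c.2.2.1.1)
  let col : X → V × V := fun c => (c.2.2.2, val c 1)
  let E : Fin (Fintype.card (Idx X (V × V))) ≃ Idx X (V × V) := (Fintype.equivFin _).symm
  refine ⟨m, N, Fintype.card (Idx X (V × V)), e, hN, ?_⟩
  intro q0 hq0
  let q : Idx X (V × V) → ℕ := fun j => q0 (E.symm j)
  have hq : ∀ j, Odd (q j) := fun j => hq0 _
  have hqn : ∀ j, NeZero (q j) := fun j => ⟨by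
    have := hq j
    intro h
    rw [h] at this
    exact absurd this (by decide)⟩
  -- transport of residue vectors
  let tr : (∀ j, ZMod (q0 j)) → (∀ j, ZMod (q j)) := fun t j => t (E.symm j)
  let rt : (∀ j, ZMod (q j)) → (∀ j, ZMod (q0 j)) := fun t j => cast (by simp [q]) (t (E j))
  have htr_add : ∀ t t', tr (t + t') = tr t + tr t' := fun _ _ => rfl
  have htr_rt : ∀ t, tr (rt t) = t := by
    intro t
    funext j
    simp only [tr, rt]
    have : ∀ (j' : Idx X (V × V)) (h : ZMod (q j') = ZMod (q j)), j' = j → cast h (t j') = t j := by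
      intro j' h hj
      subst hj
      rfl
    exact this _ _ (by simp)
  have htr_inj : Function.Injective tr := by
    intro t t' h
    funext j
    have := congrFun h (E j)
    simp only [tr] at this
    have key : ∀ j', j' = j → t j' = t' j' → t j = t' j := by
      intro j' h1 h2
      subst h1
      exact h2
    exact key _ (by simp) this
  -- labels
  let L : ℕ → (∀ j, ZMod (q0 j)) → S → ZMod N × ZMod N → Option V := fun i t g wl =>
    if h : ∃ c : Nm X (V × V), LegL col q (tr t) c ∧ (c.1.1 : ℕ) = i ∧ c.1.2.1 = (g, wl) then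
      some h.choose.1.2.2.2 else none
  let R : ℕ → (∀ j, ZMod (q0 j)) → S → ZMod N × ZMod N → Option V := fun i t hh wr =>
    if h : ∃ c : Nm X (V × V), LegR col q (tr t) c ∧ (c.1.1 : ℕ) = i ∧ c.1.2.2.1 = (hh, wr) ∧
        (∀ z z', val c.1 z = val c.1 z') then
      some (val h.choose.1 1) else none
  let lev : (∀ j, ZMod (q0 j)) → ℕ := fun t =>
    if h : ∃ c : Nm X (V × V), LegR col q (tr t) c then (h.choose.1.1 : ℕ) else 0
  let D : (∀ j, ZMod (q0 j)) → S → ZMod N × ZMod N → V := fun T s w =>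
    if h : ∃ c d : Nm X (V × V), c ≠ d ∧ ∃ t t', t + t' = tr T ∧ LegL col q t c ∧ LegR col q t' d then
      val h.choose_spec.choose.1 1 - act h.choose.1.2.2.2 s
    else F s w
  have hLs : ∀ i t g wl v, L i t g wl = some v ↔ ∃ c : Nm X (V × V), LegL col q (tr t) c ∧
      (c.1.1 : ℕ) = i ∧ c.1.2.1 = (g, wl) ∧ c.1.2.2.2 = v := by
    intro i t g wl v
    constructor
    · intro h
      simp only [L] at h
      split_ifs at h with hc
      exact ⟨hc.choose, hc.choose_spec.1, hc.choose_spec.2.1, hc.choose_spec.2.2, by simpa using h⟩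
    · rintro ⟨c, h1, h2, h3, h4⟩
      have hc : ∃ c : Nm X (V × V), LegL col q (tr t) c ∧ (c.1.1 : ℕ) = i ∧ c.1.2.1 = (g, wl) :=
        ⟨c, h1, h2, h3⟩
      simp only [L]
      rw [dif_pos hc]
      have := hc.choose_spec.1.unique h1
      rw [this, h4]
  have hRs : ∀ i t hh wr b, R i t hh wr = some b ↔ ∃ c : Nm X (V × V), LegR col q (tr t) c ∧
      (c.1.1 : ℕ) = i ∧ c.1.2.2.1 = (hh, wr) ∧ (∀ z z', val c.1 z = val c.1 z') ∧
        val c.1 1 = b := by
    intro i t hh wr b
    constructor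
    · intro h
      simp only [R] at h
      split_ifs at h with hc
      exact ⟨hc.choose, hc.choose_spec.1, hc.choose_spec.2.1, hc.choose_spec.2.2.1,
        hc.choose_spec.2.2.2, by simpa using h⟩
    · rintro ⟨c, h1, h2, h3, h4, h5⟩
      have hc : ∃ c : Nm X (V × V), LegR col q (tr t) c ∧ (c.1.1 : ℕ) = i ∧ c.1.2.2.1 = (hh, wr) ∧
        (∀ z z', val c.1 z = val c.1 z') := ⟨c, h1, h2, h3, h4⟩
      simp only [R]
      rw [dif_pos hc]
      have := hc.choose_spec.1.unique h1
      rw [this, h5]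
  refine ⟨L, R, lev, D, ?_, ?_, ?_⟩
  · intro i t h wr b hR
    obtain ⟨c, h1, h2, h3, h4, h5⟩ := (hRs _ _ _ _ _).mp hR
    have hc : ∃ c : Nm X (V × V), LegR col q (tr t) c := ⟨c, h1⟩
    refine ⟨?_, ?_⟩
    · simp only [lev]
      rw [dif_pos hc, hc.choose_spec.unique h1, h2]
    · rw [← h2]
      exact c.1.1.isLt
  · intro i i' t t' g h s wl wr w v b hrel hL hR
    obtain ⟨c, c1, c2, c3, c4⟩ := (hLs _ _ _ _ _).mp hL
    obtain ⟨d, d1, d2, d3, d4, d5⟩ := (hRs _ _ _ _ _).mp hR
    by_cases hcd : c = d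
    · subst hcd
      obtain ⟨z, hz1, hz2⟩ := hrel (c2.symm.trans d2)
      have hD : D (t + t') s w = F s w := by
        simp only [D]
        rw [dif_neg]
        rintro ⟨x, y, hxy, u, u', hu, hux, huy⟩
        have h1 := (diff_name hux huy hxy).1
        rw [hu, htr_add] at h1
        exact same_name c1 d1 _ _ h1
      rw [hD, ← d5, d4 1 z]
      simp only [val]
      rw [c3, d3, c4]
      simp only
      rw [c2, hz1, hz2, add_comm]
    · have hex : ∃ c d : Nm X (V × V), c ≠ d ∧ ∃ u u', u + u' = tr (t + t') ∧ LegL col q u c ∧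
          LegR col q u' d := ⟨c, d, hcd, tr t, tr t', (htr_add _ _).symm, c1, d1⟩
      have hD : D (t + t') s w = val hex.choose_spec.choose.1 1 - act hex.choose.1.2.2.2 s := by
        simp only [D]
        rw [dif_pos hex]
      obtain ⟨x, y, hDxy, hxy, u, u', hu, hux, huy⟩ : ∃ x y : Nm X (V × V),
          D (t + t') s w = val y.1 1 - act x.1.2.2.2 s ∧ x ≠ y ∧ ∃ u u', u + u' = tr (t + t') ∧
            LegL col q u x ∧ LegR col q u' y :=
        ⟨hex.choose, hex.choose_spec.choose, hD, hex.choose_spec.choose_spec⟩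
      rw [hDxy]
      -- the two pairs agree up to order
      obtain ⟨k1, k2, k3⟩ := diff_name hux huy hxy
      obtain ⟨l1, l2, l3⟩ := diff_name c1 d1 hcd
      rw [← htr_add, ← hu] at l1 l2
      have hc' := k3 _ _ l1
      have hd' := k3 _ _ l2
      rcases hc' with hc' | hc' <;> rcases hd' with hd' | hd'
      · exact absurd (hc'.trans hd'.symm) hcd
      · rw [← hc', ← hd', c4, d5]
        abel
      · -- swapped: colours agree
        have hcol : col x.1 = col y.1 := by
          refine swap_name hux huy (u := tr t) (u' := tr t') ?_ ?_ ?_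
          · rw [← hc']; exact c1
          · rw [← hd']; exact d1
          · rw [hu, htr_add]
        have e1 : x.1.2.2.2 = y.1.2.2.2 := congrArg Prod.fst hcol
        have e2 : val x.1 1 = val y.1 1 := congrArg Prod.snd hcol
        rw [e1, ← hc', c4, hc', ← e2, ← hd', d5]
        abel
      · exact absurd (hc'.trans hd'.symm) hcd
  · intro T hT s w v
    obtain ⟨i, him, hi⟩ := hF s w v
    refine ⟨i, him, ?_⟩
    intro g z h wl wr h1 h2
    let c : X := (⟨i, him⟩, (g, wl), (h, wr), v)
    obtain ⟨eps, t, t', htt, hl, hr⟩ := exists_split (col := col) hq (tr T) (fun j => hT _) c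
    refine ⟨rt t, rt t', ?_, ?_, ?_⟩
    · apply htr_inj
      rw [htr_add, htr_rt, htr_rt, htt]
    · rw [hLs]
      exact ⟨(c, eps), by rw [htr_rt]; exact hl, rfl, rfl, rfl⟩
    · rw [Option.isSome_iff_exists]
      refine ⟨val c 1, ?_⟩
      rw [hRs]
      refine ⟨(c, eps), by rw [htr_rt]; exact hr, rfl, rfl, ?_, rfl⟩
      have key : ∀ z', val c z' = F s w + act v s := by
        intro z'
        have := hi g z h h1 z'
        simp only [val, c]
        rw [← this, ← h2]
        congr 2
        abel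
      intro z1 z2
      rw [key, key]

/-- every residue vector occurs in every interval of `∏ q` consecutive integers. -/
theorem crt_hit {k : ℕ} (q : Fin k → ℕ) (hq : ∀ j, 0 < q j)
    (hc : Pairwise (fun i j => Nat.Coprime (q i) (q j))) (t : ∀ j, ZMod (q j)) (x0 : ℕ) :
    ∃ ω, x0 ≤ ω ∧ ω < x0 + ∏ j, q j ∧ ∀ j, (ω : ZMod (q j)) = t j := by
  have hP : 0 < ∏ j, q j := Finset.prod_pos (fun j _ => hq j)
  have : NeZero (∏ j, q j) := ⟨hP.ne'⟩
  let E := ZMod.prodEquivPi q hc
  obtain ⟨x, hx⟩ := E.surjective t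
  refine ⟨x0 + (x - x0 : ZMod (∏ j, q j)).val, by omega, ?_, ?_⟩
  · have := ZMod.val_lt (x - x0 : ZMod (∏ j, q j))
    omega
  · intro j
    have h1 : ((x0 + (x - x0 : ZMod (∏ j, q j)).val : ℕ) : ZMod (∏ j, q j)) = x := by
      rw [Nat.cast_add, ZMod.natCast_zmod_val]
      ring
    have h2 := map_natCast E (x0 + (x - x0 : ZMod (∏ j, q j)).val)
    rw [h1, hx] at h2
    have h3 := congrFun h2 j
    rw [h3]
    rfl

end Main

end Crest.Agent.R320.NameGad808
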