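import Crest.Agent.R320.Z440.Hk1_851

/-!
# Row 320: star theorem for prefix-code zones (helper621)

Zones = a set `Z` of nonempty words such that a text determines its first zone; `psi z` moves tokens
along a zone; `Lf v` = legal left parts carrying token `v`, `Rt v` = legal right parts after which the
token is `v`.  One star computes the flow from the languages of uncut zone sequences.
-/

set_option autoImplicit false

namespace Crest.Agent.R320.Star_621

open Crest.Agent.R320.Hk_851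

universe u v

variable {α : Type u} {Ω : Type v}

/-- flow along a sequence of zones -/
inductive Flow (Z : Language α) (psi : List α → Ω → Ω) : Ω → List α → Ω → Prop
  | nil (ω : Ω) : Flow Z psi ω [] ω
  | cons {z w : List α} {ω ω' : Ω} (hz : z ∈ Z) (h : Flow Z psi (psi z ω) w ω') :
      Flow Z psi ω (z ++ w) ω'

/-- the token `ω` is cut in the zone `z` -/
def Cut (Lf Rt : Ω → Language α) (ω : Ω) (z : List α) : Prop :=
  ∃ P Q τ, z = P ++ Q ∧ P ∈ Lf ω ∧ Q ∈ Rt τ

/-- flow along a sequence of zones in which the moving token is never cut -/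
inductive UFlow (Z : Language α) (psi : List α → Ω → Ω) (Lf Rt : Ω → Language α) :
    Ω → List α → Ω → Prop
  | nil (ω : Ω) : UFlow Z psi Lf Rt ω [] ω
  | cons {z w : List α} {ω ω' : Ω} (hz : z ∈ Z) (hc : ¬ Cut Lf Rt ω z)
      (h : UFlow Z psi Lf Rt (psi z ω) w ω') : UFlow Z psi Lf Rt ω (z ++ w) ω'

/-- sequences of zones -/
inductive ZS (Z : Language α) : List α → Prop
  | nil : ZS Z []
  | cons {z w : List α} (hz : z ∈ Z) (h : ZS Z w) : ZS Z (z ++ w)

variable {Z : Language α} {psi : List α → Ω → Ω} {Lf Rt : Ω → Language α}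

/-- a text determines its first zone -/
def Code (Z : Language α) : Prop :=
  [] ∉ Z ∧ ∀ z z' x x' : List α, z ∈ Z → z' ∈ Z → z ++ x = z' ++ x' → z = z'

/-- soundness of junctions relative to the zones in `Z` -/
def Sound (Z : Language α) (psi : List α → Ω → Ω) (Lf Rt : Ω → Language α) : Prop :=
  (∀ ω, [] ∉ Lf ω) ∧
  ∀ (ω τ : Ω) (P Q z x y : List α), P ∈ Lf ω → Q ∈ Rt τ → z ∈ Z → P ++ Q ++ x = z ++ y →
    P ++ Q = z ∧ τ = psi z ω

theorem Flow.append {ω σ ω' : Ω} {u w : List α} (h1 : Flow Z psi ω u σ)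
    (h2 : Flow Z psi σ w ω') : Flow Z psi ω (u ++ w) ω' := by
  induction h1 with
  | nil => exact h2
  | cons hz _ ih => rw [List.append_assoc]; exact Flow.cons hz (ih h2)

theorem UFlow.flow {ω ω' : Ω} {w : List α} (h : UFlow Z psi Lf Rt ω w ω') :
    Flow Z psi ω w ω' := by
  induction h with
  | nil ω => exact Flow.nil ω
  | cons hz _ _ ih => exact Flow.cons hz ih

theorem Flow.zs {ω ω' : Ω} {w : List α} (h : Flow Z psi ω w ω') : ZS Z w := by
  induction h with
  | nil => exact ZS.nil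
  | cons hz _ ih => exact ZS.cons hz ih

theorem ZS.tail (hC : Code Z) {z x : List α} (hz : z ∈ Z) (h : ZS Z (z ++ x)) : ZS Z x := by
  generalize hw : z ++ x = w at h
  cases h with
  | nil =>
    have : z = [] := (List.append_eq_nil_iff.1 hw).1
    exact absurd (this ▸ hz) hC.1
  | @cons z' w' hz' h' =>
    have e := hC.2 z z' x w' hz hz' hw
    subst e
    have : x = w' := List.append_cancel_left hw
    subst this
    exact h'

theorem Flow.strip (hC : Code Z) {ω σ : Ω} {u x : List α} (h : Flow Z psi ω u σ)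
    (hx : ZS Z (u ++ x)) : ZS Z x := by
  induction h with
  | nil => exact hx
  | cons hz _ ih =>
    rw [List.append_assoc] at hx
    exact ih (ZS.tail hC hz hx)

theorem zs_iff {w : List α} : ZS Z w ↔ w ∈ (KStar.kstar Z : Language α) := by
  constructor
  · intro h
    induction h with
    | nil => exact Language.nil_mem_kstar Z
    | @cons z w hz _ ih =>
      obtain ⟨L, rfl, hL⟩ := ih
      exact ⟨z :: L, by simp, by
        intro y hy
        rcases List.mem_cons.1 hy with rfl | hy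
        · exact hz
        · exact hL y hy⟩
  · rintro ⟨L, rfl, hL⟩
    induction L with
    | nil => exact ZS.nil
    | cons y L ih =>
      rw [List.flatten_cons]
      exact ZS.cons (hL y (by simp)) (ih fun z hz => hL z (by simp [hz]))

/-- the set whose star is taken -/
def KK (Z : Language α) (psi : List α → Ω → Ω) (Lf Rt : Ω → Language α) : Language α :=
  {w | ∃ τ σ, ∃ Q ∈ Rt τ, ∃ u, UFlow Z psi Lf Rt τ u σ ∧ ∃ P ∈ Lf σ, Q ++ (u ++ P) = w}

/-- last part: right part and uncut rest -/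
def LastP (Z : Language α) (psi : List α → Ω → Ω) (Lf Rt : Ω → Language α) (ω' : Ω) :
    Language α :=
  {w | ∃ τ, ∃ Q ∈ Rt τ, ∃ u, UFlow Z psi Lf Rt τ u ω' ∧ Q ++ u = w}

/-- first part -/
def FirstP (Z : Language α) (psi : List α → Ω → Ω) (Lf Rt : Ω → Language α) (ω : Ω) :
    Language α :=
  {w | ∃ σ, ∃ u, UFlow Z psi Lf Rt ω u σ ∧ ∃ P ∈ Lf σ, u ++ P = w}

theorem tail_sound (hC : Code Z) (hS : Sound Z psi Lf Rt) (ω' : Ω) (L : List (List α))
    (hL : ∀ y ∈ L, y ∈ KK Z psi Lf Rt) (r : List α) (hr : r ∈ LastP Z psi Lf Rt ω') :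
    ∀ (σ : Ω) (P : List α), P ∈ Lf σ → ZS Z (P ++ (L.flatten ++ r)) →
      Flow Z psi σ (P ++ (L.flatten ++ r)) ω' := by
  have key : ∀ (σ τ : Ω) (P Q x : List α), P ∈ Lf σ → Q ∈ Rt τ → ZS Z (P ++ (Q ++ x)) →
      (P ++ Q ∈ Z ∧ τ = psi (P ++ Q) σ) ∧ ZS Z x := by
    intro σ τ P Q x hP hQ hz
    generalize hw : P ++ (Q ++ x) = w at hz
    cases hz with
    | nil =>
      have : P = [] := (List.append_eq_nil_iff.1 hw).1
      exact absurd (this ▸ hP) (hS.1 σ)
    | @cons z y hz' hy =>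
      have h1 : P ++ Q ++ x = z ++ y := by rw [List.append_assoc]; exact hw
      obtain ⟨h2, h3⟩ := hS.2 σ τ P Q z x y hP hQ hz' h1
      subst h2
      have : x = y := List.append_cancel_left h1
      subst this
      exact ⟨⟨hz', h3⟩, hy⟩
  induction L with
  | nil =>
    intro σ P hP hz
    obtain ⟨τ, Q, hQ, u, hu, rfl⟩ := hr
    simp only [List.flatten_nil, List.nil_append] at hz ⊢
    obtain ⟨⟨h1, h2⟩, h3⟩ := key σ τ P Q u hP hQ hz
    rw [← List.append_assoc]
    exact Flow.cons h1 (h2 ▸ hu.flow)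
  | cons y L ih =>
    intro σ P hP hz
    obtain ⟨τ, σ', Q, hQ, u, hu, P', hP', rfl⟩ := hL y (by simp)
    have e : P ++ ((((Q ++ (u ++ P')) :: L).flatten) ++ r)
        = P ++ (Q ++ (u ++ (P' ++ (L.flatten ++ r)))) := by simp
    rw [e] at hz ⊢
    obtain ⟨⟨h1, h2⟩, h3⟩ := key σ τ P Q _ hP hQ hz
    have h4 := Flow.strip hC hu.flow h3
    have h5 := ih (fun z hz => hL z (by simp [hz])) σ' P' hP' h4
    rw [← List.append_assoc]
    exact Flow.cons h1 (h2 ▸ hu.flow.append h5)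

theorem tail_complete (hS : Sound Z psi Lf Rt) {ω ω' : Ω} {w : List α}
    (h : Flow Z psi ω w ω') :
    UFlow Z psi Lf Rt ω w ω' ∨
      ∃ f ∈ FirstP Z psi Lf Rt ω, ∃ L : List (List α), (∀ y ∈ L, y ∈ KK Z psi Lf Rt) ∧
        ∃ r ∈ LastP Z psi Lf Rt ω', f ++ (L.flatten ++ r) = w := by
  induction h with
  | nil ω => exact Or.inl (UFlow.nil ω)
  | @cons z w ω ω' hz _ ih =>
    by_cases hc : Cut Lf Rt ω z
    · right
      obtain ⟨P, Q, τ, hzz, hP, hQ⟩ := hc
      obtain ⟨-, hτ⟩ := hS.2 ω τ P Q z [] [] hP hQ hz (by simp [hzz])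
      refine ⟨P, ⟨ω, [], UFlow.nil ω, P, hP, rfl⟩, ?_⟩
      rcases ih with hu | ⟨f, ⟨σ, u, hu, P', hP', rfl⟩, L, hL, r, hr, hw⟩
      · exact ⟨[], by simp, Q ++ w, ⟨τ, Q, hQ, w, hτ ▸ hu, rfl⟩, by simp [hzz]⟩
      · refine ⟨(Q ++ (u ++ P')) :: L, ?_, r, hr, ?_⟩
        · intro y hy
          rcases List.mem_cons.1 hy with rfl | hy
          · exact ⟨τ, σ, Q, hQ, u, hτ ▸ hu, P', hP', rfl⟩
          · exact hL y hy
        · rw [← hw, hzz]; simp
    · rcases ih with hu | ⟨f, ⟨σ, u, hu, P', hP', rfl⟩, L, hL, r, hr, hw⟩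
      · exact Or.inl (UFlow.cons hz hc hu)
      · right
        exact ⟨(z ++ u) ++ P', ⟨σ, z ++ u, UFlow.cons hz hc hu, P', hP', rfl⟩, L, hL, r, hr, by
          rw [← hw]; simp⟩

/-- **Star theorem.** -/
theorem star [Finite Ω] {h : ℕ} (hC : Code Z) (hS : Sound Z psi Lf Rt)
    (hZ : HL (h + 1) (KStar.kstar Z : Language α))
    (hL : ∀ ω, HL h (Lf ω)) (hR : ∀ ω, HL h (Rt ω))
    (hU : ∀ ω ω', HL h ({w | UFlow Z psi Lf Rt ω w ω'} : Language α)) (ω ω' : Ω) :
    HL (h + 1) ({w | Flow Z psi ω w ω'} : Language α) := by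
  have cat : ∀ {L M : Language α} {k : ℕ}, HL k L → HL k M →
      HL k ({w | ∃ a ∈ L, ∃ b ∈ M, a ++ b = w} : Language α) := by
    intro L M k h1 h2
    exact (h1.mul h2).congr fun w => Language.mem_mul.symm
  have hK : HL h (KK Z psi Lf Rt) := by
    refine (HL.iUnion fun τ => HL.iUnion fun σ =>
      cat (hR τ) (cat (hU τ σ) (hL σ))).congr fun w => ?_
    constructor
    · rintro ⟨τ, σ, Q, hQ, u, hu, P, hP, rfl⟩
      exact ⟨τ, σ, Q, hQ, u ++ P, ⟨u, hu, P, hP, rfl⟩, rfl⟩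
    · rintro ⟨τ, σ, Q, hQ, _, ⟨u, hu, P, hP, rfl⟩, rfl⟩
      exact ⟨τ, σ, Q, hQ, u, hu, P, hP, rfl⟩
  have hLast : HL h (LastP Z psi Lf Rt ω') := by
    refine (HL.iUnion fun τ => cat (hR τ) (hU τ ω')).congr fun w => ?_
    constructor
    · rintro ⟨τ, Q, hQ, u, hu, rfl⟩
      exact ⟨τ, Q, hQ, u, hu, rfl⟩
    · rintro ⟨τ, Q, hQ, u, hu, rfl⟩
      exact ⟨τ, Q, hQ, u, hu, rfl⟩
  have hFirst : HL h (FirstP Z psi Lf Rt ω) := by
    refine (HL.iUnion fun σ => cat (hU ω σ) (hL σ)).congr fun w => ?_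
    constructor
    · rintro ⟨σ, u, hu, P, hP, rfl⟩
      exact ⟨σ, u, hu, P, hP, rfl⟩
    · rintro ⟨σ, u, hu, P, hP, rfl⟩
      exact ⟨σ, u, hu, P, hP, rfl⟩
  have m := Nat.le_succ h
  refine (((hU ω ω').mono m).sup (hZ.inf (cat (hFirst.mono m)
    (cat hK.star (hLast.mono m))))).congr fun w => ?_
  constructor
  · intro hw
    have hzs := zs_iff.1 (Flow.zs hw)
    rcases tail_complete hS hw with hu | ⟨f, hf, L, hL', r, hr, rfl⟩
    · exact Or.inl hu
    · exact Or.inr ⟨hzs, f, hf, L.flatten ++ r, ⟨L.flatten, ⟨L, rfl, hL'⟩, r, hr, rfl⟩, rfl⟩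
  · rintro (hu | ⟨hzs, f, hf, _, ⟨_, ⟨L, rfl, hL'⟩, r, hr, rfl⟩, rfl⟩)
    · exact UFlow.flow hu
    · obtain ⟨σ, u, hu, P, hP, rfl⟩ := hf
      have h1 := zs_iff.2 hzs
      rw [List.append_assoc] at h1
      have h2 := Flow.strip hC hu.flow h1
      have h3 := tail_sound hC hS ω' L hL' r hr σ P hP h2
      show Flow Z psi ω (u ++ P ++ (L.flatten ++ r)) ω'
      rw [List.append_assoc]
      exact hu.flow.append h3

end Crest.Agent.R320.Star_621
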