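import Crest.Agent.R320.Z440.Thr1_851

/-!
# Row 320: the top, language side (helper851)

`top`: if for every finite monoid `S` and every `φ : α → S` there are a finite automaton `δ`,
computed at height `k` on ALL words, and finitely many of its runs which determine the product of
`φ`, then every regular language over `α` has generalized star height `≤ k`.
-/

set_option autoImplicit false

namespace Crest.Agent.R320.Thr_851

open Crest.RegLang Crest.Agent.R320.Hk_851

universe u v

variable {α : Type u}

theorem run_mul {S : Type*} [Monoid S] (φ : α → S) (s : S) (w : List α) :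
    run (fun s a => s * φ a) s w = s * (w.map φ).prod := by
  induction w generalizing s with
  | nil => simp
  | cons a w ih =>
    rw [List.map_cons, List.prod_cons, ← mul_assoc]
    exact ih _

theorem top [Finite α] (k : ℕ)
    (h : ∀ (S : Type u) [Monoid S] [Finite S] (φ : α → S),
      ∃ (Q : Type u) (_ : Finite Q) (δ : Q → α → Q), Comp k δ (fun _ _ => True) ∧
        ∃ (ι : Type u) (_ : Finite ι) (b : ι → Q) (G : (ι → Q) → S),
          ∀ w, (w.map φ).prod = G (fun i => run δ (b i) w))
    (L : Language α) (hL : L.IsRegular) : HL k L := by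
  refine of_monoid (fun S _ _ φ s => ?_) L hL
  obtain ⟨Q, hQ, δ, hC, ι, hι, b, G, hG⟩ := h S φ
  obtain ⟨E, h1, h2, h3⟩ := transfer hC (fun (s : S) a => s * φ a) 1 b G (fun w => by
    rw [run_mul, one_mul]; exact hG w)
  refine (h1 s).congr fun w => ?_
  constructor
  · intro hw
    have hw' : (w.map φ).prod = s := hw
    have := h3 w (fun _ => trivial)
    rw [run_mul, one_mul, hw'] at this
    exact this
  · intro hw
    have := h2 s w hw
    rw [run_mul, one_mul] at this
    exact this

/-- The inner automaton for an outer one: if the cut-free runs of the outer scheme `C` (class `Gd`)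
are functions of finitely many runs of an automaton `δ₂` which lie in a class computed at height
`k`, then the outer runs are computed at height `k + 1`. -/
theorem level {Q : Type v} [Finite α] [Finite Q] (C : Scheme α Q) (hD : 0 < C.D) {k : ℕ}
    (Gd : Q → List α → Prop)
    (hG : ∀ q x y, Gd q (x ++ y) → Gd q x ∧ Gd (run C.δ q x) y)
    {Q₂ : Type*} [Finite Q₂] {δ₂ : Q₂ → α → Q₂} {Gd₂ : Q₂ → List α → Prop}
    (h₂ : Comp k δ₂ Gd₂) {ι : Type*} [Finite ι] (b : Q → ι → Q₂) (G : Q → (ι → Q₂) → Q)
    (hrun : ∀ q w, run C.δ q w = G q (fun i => run δ₂ (b q i) w))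
    (hgd : ∀ q w, Gd q w → (∀ i, ¬ C.CutAt q w i) → ∀ i, Gd₂ (b q i) w) :
    Comp (k + 1) C.δ Gd := by
  choose E h1 h2 h3 using fun q => transfer h₂ C.δ q (b q) (G q) (hrun q)
  exact C.nest hD Gd hG (fun q p => E q p) (fun q p => h1 q p) (fun q p => h2 q p)
    (fun q w hw hc => h3 q w (hgd q w hw hc))

/-- A bounded number of different local devices at the two ends: the class may be checked only on
long words; short words are finite. -/
theorem Comp.of_long {Q : Type v} [Finite α] {k : ℕ} {δ : Q → α → Q} {Gd : Q → List α → Prop}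
    (N : ℕ) (h : Comp k δ (fun q w => Gd q w ∧ N ≤ w.length)) : Comp k δ Gd := by
  obtain ⟨F, h1, h2, h3⟩ := h
  refine ⟨fun q q' => {w | w ∈ F q q' ∨ (w.length < N ∧ run δ q w = q')},
    fun q q' => (h1 q q').setOf_or
      (HL.finite ((List.finite_length_lt α N).subset fun _ h => h.1)), ?_, ?_⟩
  · rintro q q' w (hw | hw)
    · exact h2 q q' w hw
    · exact hw.2
  · intro q w hw
    by_cases hN : N ≤ w.length
    · exact Or.inl (h3 q w ⟨hw, hN⟩)
    · exact Or.inr ⟨not_le.1 hN, rfl⟩

/-- union of two classes -/
theorem Comp.or {Q : Type v} {k : ℕ} {δ : Q → α → Q} {Gd Gd' : Q → List α → Prop}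
    (h : Comp k δ Gd) (h' : Comp k δ Gd') : Comp k δ (fun q w => Gd q w ∨ Gd' q w) := by
  obtain ⟨F, h1, h2, h3⟩ := h
  obtain ⟨F', h1', h2', h3'⟩ := h'
  refine ⟨fun q q' => F q q' + F' q q', fun q q' => (h1 q q').add (h1' q q'), ?_, ?_⟩
  · rintro q q' w (hw | hw)
    · exact h2 q q' w hw
    · exact h2' q q' w hw
  · rintro q w (hw | hw)
    · exact Or.inl (h3 q w hw)
    · exact Or.inr (h3' q w hw)

end Crest.Agent.R320.Thr_851
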