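import Crest.Agent.R320.Z440.Block_467

/-!
# Row 320, top of the two-scheme proof in the block calculus (helper467)
-/

set_option autoImplicit false

namespace Crest.Agent.R320.Top5_467

open Crest.RegLang Crest.Agent.R320.Hk_851 Crest.Agent.R320.Blk467

universe u

variable {α : Type u} {k : ℕ}

theorem PCode.first {C : Set (List α)} (hC : PCode C) {Y r : List α} (hY : Y ∈ C) :
    ∀ l : List (List α), (∀ X ∈ l, X ∈ C) → Y ++ r = l.flatten →
      ∃ l', l = Y :: l' ∧ r = l'.flatten := by
  intro l hl e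
  cases l with
  | nil =>
    exfalso
    rw [List.flatten_nil] at e
    have : Y = [] := (List.append_eq_nil_iff.1 e).1
    exact hC.1 (this ▸ hY)
  | cons X l =>
    have hX := hl X (by simp)
    rw [List.flatten_cons] at e
    have hXY : X = Y := by
      rcases List.prefix_or_prefix_of_prefix (l₁ := X) (l₂ := Y) (l₃ := X ++ l.flatten)
        (List.prefix_append _ _) (e ▸ List.prefix_append _ _) with h1 | h1
      · exact hC.2 X hX Y hY h1
      · exact (hC.2 Y hY X hX h1).symm
    subst hXY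
    exact ⟨l, rfl, List.append_cancel_left e⟩

theorem PCode.split {C : Set (List α)} (hC : PCode C) : ∀ (l1 : List (List α)) (r : List α)
    (l : List (List α)), (∀ X ∈ l1, X ∈ C) → (∀ X ∈ l, X ∈ C) → l1.flatten ++ r = l.flatten →
      ∃ l', l = l1 ++ l' ∧ r = l'.flatten := by
  intro l1
  induction l1 with
  | nil => intro r l _ _ e; exact ⟨l, rfl, by simpa using e⟩
  | cons X l1 ih =>
    intro r l h1 hl e
    have e' : X ++ (l1.flatten ++ r) = l.flatten := by
      rw [← e, List.flatten_cons, List.append_assoc]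
    obtain ⟨l', rfl, e2⟩ := PCode.first hC (h1 X (by simp)) l hl e'
    obtain ⟨l'', rfl, e3⟩ := ih r l' (fun Y hY => h1 Y (by simp [hY]))
      (fun Y hY => hl Y (by simp [hY])) e2
    exact ⟨l'', rfl, e3⟩

/-- the promise scheme with look-ahead of one more block; only tested on `Bad*` -/
theorem promise_step2 {V : Type*} [Finite V] (Bad : Set (List α)) (hC : PCode Bad)
    (T : V → List α → V) (LP RQ : V → Language α)
    (sound : ∀ v b P Q r, P ∈ LP v → Q ∈ RQ b → P ++ Q ++ r ∈ Str Bad → P ++ Q ∈ Lg Bad T v b)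
    (compl : ∀ X ∈ Bad, ∀ X' ∈ Bad, ∀ v, ∃ P Q, P ++ Q = X ++ X' ∧ P ∈ LP v ∧
      Q ∈ RQ (T (T v X) X'))
    (hB : HL k (Bad : Language α)) (hP : ∀ v, HL k (LP v)) (hQ : ∀ v, HL k (RQ v))
    (hD1 : ∀ v v', HL (k + 1) ({X | X ∈ Bad ∧ T v X = v'} : Language α))
    (v v' : V) : HL (k + 1) (Lg Bad T v v') := by
  classical
  let K : Language α := {x | ∃ a : V, x ∈ (RQ a * LP a : Language α)}
  let D1 : V → Language α := fun a => {X | X ∈ Bad ∧ T a X = v'}
  let D : V → Language α := fun a => (if a = v' then (1 : Language α) else 0) + D1 a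
  have hDmem : ∀ a d, d ∈ D a → ∃ l2 : List (List α), (∀ X ∈ l2, X ∈ Bad) ∧ l2.flatten = d ∧
      l2.foldl T a = v' := by
    intro a d hd
    rcases hd with h | h
    · split_ifs at h with haa
      · have h' : d = [] := h
        subst h'
        exact ⟨[], by simp, rfl, haa⟩
      · exact absurd h (Language.notMem_zero _)
    · exact ⟨[d], by simpa using h.1, by simp, h.2⟩
  have hD : ∀ a, HL (k + 1) (D a) := by
    intro a
    refine HL.add (M := D1 a) ?_ (hD1 a v')
    split_ifs
    · exact HL.one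
    · exact HL.zero
  have hK : HL (k + 1) (KStar.kstar K) :=
    HL.star (HL.iUnion (k := k) (ι := V) (L := fun a => RQ a * LP a)
      (fun a => (hQ a).mul (hP a)))
  have hBs : HL (k + 1) (KStar.kstar (Bad : Language α)) := hB.star
  let Z : Language α := {x | ∃ a : V, x ∈ (RQ a * D a : Language α)}
  have hZ : HL (k + 1) Z := HL.iUnion (k := k + 1) (ι := V) (L := fun a => RQ a * D a)
      (fun a => (HL.mono (Nat.le_succ k) (hQ a)).mul (hD a))
  have hE : HL (k + 1) (LP v * KStar.kstar K * Z) :=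
    ((HL.mono (Nat.le_succ k) (hP v)).mul hK).mul hZ
  refine (hBs.inf ((hD v).add hE)).congr fun w => ?_
  constructor
  · rintro ⟨l, hl, rfl, hf⟩
    refine ⟨Language.mem_kstar.2 ⟨l, rfl, hl⟩, ?_⟩
    have main : ∀ (n : ℕ) (l : List (List α)) (v : V), l.length ≤ n → (∀ X ∈ l, X ∈ Bad) →
        l.foldl T v = v' → l.flatten ∈ D v ∨ ∃ P ∈ LP v, ∃ ks : List (List α),
          (∀ x ∈ ks, x ∈ K) ∧ ∃ z ∈ Z, P ++ ks.flatten ++ z = l.flatten := by
      intro n
      induction n with
      | zero =>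
        intro l v hn _ hf
        have : l = [] := List.length_eq_zero_iff.1 (by omega)
        subst this
        left; left
        have hf' : v = v' := hf
        rw [if_pos hf']
        exact rfl
      | succ n ih =>
        intro l v hn hl hf
        match l, hn, hl, hf with
        | [], _, _, hf =>
          left; left
          have hf' : v = v' := hf
          rw [if_pos hf']
          exact rfl
        | [X], _, hl, hf =>
          left; right
          exact ⟨by simpa using hl X (by simp), by simpa using hf⟩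
        | X :: X' :: l, hn, hl, hf =>
          right
          obtain ⟨P, Q, e, hP', hQ'⟩ := compl X (hl X (by simp)) X' (hl X' (by simp)) v
          have hf' : l.foldl T (T (T v X) X') = v' := hf
          have hn' : l.length ≤ n := by simp only [List.length_cons] at hn; omega
          have e0 : (X :: X' :: l).flatten = (P ++ Q) ++ l.flatten := by
            rw [e]; simp [List.append_assoc]
          rcases ih l (T (T v X) X') hn' (fun Y hY => hl Y (by simp [hY])) hf' with h |
              ⟨P1, hP1, ks, hks, z, hz, e1⟩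
          · refine ⟨P, hP', [], by simp, Q ++ l.flatten,
              ⟨T (T v X) X', Language.mem_mul.2 ⟨Q, hQ', _, h, rfl⟩⟩, ?_⟩
            rw [e0]
            simp [List.append_assoc]
          · refine ⟨P, hP', (Q ++ P1) :: ks, ?_, z, hz, ?_⟩
            · intro x hx
              rcases List.mem_cons.1 hx with rfl | hx
              · exact ⟨T (T v X) X', Language.mem_mul.2 ⟨Q, hQ', P1, hP1, rfl⟩⟩
              · exact hks x hx
            · rw [e0, ← e1]
              simp [List.append_assoc]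
    rcases main l.length l v le_rfl hl hf with h | ⟨P, hP', ks, hks, z, hz, e⟩
    · exact Or.inl h
    · right
      exact mem_mul3.2 ⟨P, hP', ks.flatten, Language.mem_kstar.2 ⟨ks, rfl, hks⟩, z, hz, e⟩
  · rintro ⟨hw, h⟩
    obtain ⟨l, rfl, hl⟩ := Language.mem_kstar.1 hw
    refine ⟨l, hl, rfl, ?_⟩
    have hup := hC.uparse
    rcases h with h | h
    · obtain ⟨l2, h1, h2, h3⟩ := hDmem v _ h
      rw [hup l l2 hl h1 h2.symm]
      exact h3
    · obtain ⟨P, hP', y, hy, z, hz, e⟩ := mem_mul3.1 h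
      obtain ⟨ks, rfl, hks⟩ := Language.mem_kstar.1 hy
      obtain ⟨b, hb⟩ := hz
      obtain ⟨Q, hQ', d, hd, rfl⟩ := Language.mem_mul.1 hb
      obtain ⟨l2, g1, rfl, g3⟩ := hDmem b d hd
      have main : ∀ (ks : List (List α)) (v : V) (P : List α) (l : List (List α)),
          (∀ x ∈ ks, x ∈ K) → (∀ X ∈ l, X ∈ Bad) → P ∈ LP v →
          P ++ ks.flatten ++ (Q ++ l2.flatten) = l.flatten → l.foldl T v = v' := by
        intro ks
        induction ks with
        | nil =>
          intro v P l _ hl hP' e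
          have e' : P ++ Q ++ l2.flatten = l.flatten := by simpa using e
          obtain ⟨l1, f1, f2, f3⟩ := sound v b P Q _ hP' hQ' ⟨l, hl, e'.symm⟩
          have e2 : l1.flatten ++ l2.flatten = l.flatten := by rw [f2, e']
          obtain ⟨l3, rfl, e3⟩ := PCode.split hC l1 _ l f1 hl e2
          have : l3 = l2 := hup l3 l2 (fun X hX => hl X (by simp [hX])) g1 e3.symm
          subst this
          rw [List.foldl_append, f3]
          exact g3
        | cons y ks ih =>
          intro v P l hks hl hP' e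
          obtain ⟨a, ha⟩ := hks y (by simp)
          obtain ⟨Q1, hQ1, P1, hP1, rfl⟩ := Language.mem_mul.1 ha
          have e' : (P ++ Q1) ++ (P1 ++ ks.flatten ++ (Q ++ l2.flatten)) = l.flatten := by
            rw [← e]; simp [List.append_assoc]
          obtain ⟨l1, f1, f2, f3⟩ := sound v a P Q1 _ hP' hQ1 ⟨l, hl, e'.symm⟩
          rw [← f2] at e'
          obtain ⟨l3, rfl, e3⟩ := PCode.split hC l1 _ l f1 hl e'
          rw [List.foldl_append, f3]
          exact ih a P1 l3 (fun x hx => hks x (by simp [hx])) (fun X hX => hl X (by simp [hX]))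
            hP1 e3
      exact main ks v P l hks hl hP' e

/-- **top**: two schemes, three stars, all words -/
theorem top5 {S : Type u} [Monoid S] [Finite S] (φ : α → S)
    {V : Type u} [AddCommGroup V] [Finite V] (act : V → S → V)
    (hadd : ∀ a b s, act (a + b) s = act a s + act b s)
    (hone : ∀ v, act v 1 = v) (hmul : ∀ v s t, act v (s * t) = act (act v s) t)
    (hfaith : ∀ s t, (∀ v, act v s = act v t) → s = t)
    (nu : List α → V) (XX Bad : Set (List α)) (hC : PCode XX) (hBX : Bad ⊆ XX)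
    (LP1 RQ1 LP2 RQ2 : V → Language α)
    (s1 : ∀ v b P Q, P ∈ LP1 v → Q ∈ RQ1 b →
      P ++ Q ∈ XX ∧ act v ((P ++ Q).map φ).prod + nu (P ++ Q) = b)
    (c1 : ∀ X ∈ XX, X ∉ Bad → ∀ v, ∃ P Q, P ++ Q = X ∧ P ∈ LP1 v ∧
      Q ∈ RQ1 (act v (X.map φ).prod + nu X))
    (s2 : ∀ v b P Q r, P ∈ LP2 v → Q ∈ RQ2 b → P ++ Q ++ r ∈ Str Bad →
      P ++ Q ∈ Lg Bad (fun v X => act v (X.map φ).prod + nu X) v b)
    (c2 : ∀ X ∈ Bad, ∀ X' ∈ Bad, ∀ v, ∃ P Q, P ++ Q = X ++ X' ∧ P ∈ LP2 v ∧
      Q ∈ RQ2 (act (act v (X.map φ).prod + nu X) (X'.map φ).prod + nu X'))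
    (hBad : HL 1 (Bad : Language α)) (hL2 : ∀ v, HL 1 (LP2 v)) (hR2 : ∀ v, HL 1 (RQ2 v))
    (hL1 : ∀ v, HL 2 (LP1 v)) (hR1 : ∀ v, HL 2 (RQ1 v))
    (hD : ∀ v v', HL 2 ({X | X ∈ Bad ∧ act v (X.map φ).prod + nu X = v'} : Language α))
    (htail : ∀ s, HL 3 ({w | (∀ X ∈ XX, ¬ X <+: w) ∧ (w.map φ).prod = s} : Language α))
    (s : S) : HL 3 ({w | (w.map φ).prod = s} : Language α) := by
  have h1 : ∀ v v', HL 2 (Lg Bad (fun v X => act v (X.map φ).prod + nu X) v v') :=
    promise_step2 (k := 1) Bad (hC.mono hBX) _ LP2 RQ2 s2 c2 hBad hL2 hR2 hD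
  have h2 : ∀ v v', HL 3 (Lg XX (fun v X => act v (X.map φ).prod + nu X) v v') :=
    star_step (k := 2) XX Bad _ LP1 RQ1 hBX
      (fun v b P Q hP hQ => by
        obtain ⟨g1, g2⟩ := s1 v b P Q hP hQ
        exact ⟨[P ++ Q], by simpa using g1, by simp, g2⟩)
      (fun X hX hb v => c1 X hX hb v) h1 hL1 hR1
  have h3 := fun s => fibre_of_threads (k := 3) act hadd hone hmul hfaith φ nu XX hC.uparse h2 s
  let A : S → Language α := fun a => {w | w ∈ Str XX ∧ (w.map φ).prod = a}
  let B : S → Language α := fun b => {w | (∀ X ∈ XX, ¬ X <+: w) ∧ (w.map φ).prod = b}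
  refine (HL.biUnion (k := 3) (Set.toFinite {p : S × S | p.1 * p.2 = s})
    (L := fun p => A p.1 * B p.2)
    (fun p _ => HL.mul (L := A p.1) (M := B p.2) (h3 p.1) (htail p.2))).congr fun w => ?_
  constructor
  · intro hw
    obtain ⟨M, E, rfl, hM, hE⟩ := exists_parse hC.1 w
    refine ⟨((M.map φ).prod, (E.map φ).prod), ?_, ?_⟩
    · have hw' : ((M ++ E).map φ).prod = s := hw
      rw [List.map_append, List.prod_append] at hw'
      exact hw'
    · exact Language.mem_mul.2 ⟨M, ⟨hM, rfl⟩, E, ⟨hE, rfl⟩, rfl⟩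
  · rintro ⟨p, hp, hw⟩
    obtain ⟨M, ⟨_, hM⟩, E, ⟨_, hE⟩, rfl⟩ := Language.mem_mul.1 hw
    change ((M ++ E).map φ).prod = s
    rw [List.map_append, List.prod_append, hM, hE]
    exact hp

end Crest.Agent.R320.Top5_467
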